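import Vale.Agent.P246.T.HC
import Vale.Agent.P246.T.RH1
import Vale.Agent.P246.T.RH2
import Vale.Agent.P246.T.RH3
import Vale.Agent.P246.T.BS

/-!
# Connectivity from vanishing homology (absolute Hurewicz, vanishing part)

For a simply connected space `Z` whose homology vanishes in the degrees `2, …, m + 1`, every map
of a disc of dimension at most `m + 1` with boundary at the base point is deformable to the base
point (`LftS {z} k` for `k < m + 2`), that is, `Z` is `(m + 1)`-connected.
-/

namespace Vale.Agent.P178.H551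

open Topology Metric Set Vale.Agent.P246.T

/-- the relative Hurewicz theorem in a range of degrees -/
theorem lft_of_hzero : ∀ n : ℕ, ∀ (B : Type) [TopologicalSpace B] [SimplyConnectedSpace B]
    (A : Set B) [SimplyConnectedSpace A], (∀ k ≤ n + 1, HZero univ A k) →
      ∀ k ≤ n + 1, LftS A k := by
  intro n
  induction n with
  | zero =>
    intro B _ _ A _ _ k hk
    have hA : IsPathConnected A := isPathConnected_iff_pathConnectedSpace.2 inferInstance
    rcases k with _ | _ | k
    · exact RH.lft0 hA.nonempty
    · exact RH.lft1 hA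
    · omega
  | succ n ih =>
    intro B _ _ A _ hz k hk
    rcases Nat.lt_or_ge k (n + 2) with h | h
    · exact ih B A (fun j hj => hz j (by omega)) k (by omega)
    · obtain rfl : k = n + 2 := by omega
      exact RH.step PS.main (LL.main_of HC.main) BS.main RH.cyc RH.pt RH.ext_of_lft n ih B A
        fun j hj => hz j (by omega)

variable {Z : Type} [TopologicalSpace Z]

/-- cycles of constant simplices bound -/
theorem con_bound (z : Z) {n : ℕ} {c : Ch (n + 1) Z} (hc : c ∈ Con ({z} : Set Z) (n + 1))
    (h0 : bd n c = 0) : ∃ b : Ch (n + 2) Z, bd (n + 1) b = c := by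
  obtain ⟨b, -, hb⟩ := (PR.acyc_singleton z).succ n c hc h0
  exact ⟨b, hb⟩

/-- if `Z` is `(N - 1)`-connected, then the cycles of positive degree less than `N` bound -/
theorem bound_of_lft {z : Z} {N : ℕ} (h : ∀ k < N, LftS ({z} : Set Z) k) (k : ℕ)
    (hk : k + 2 ≤ N) (c : Ch (k + 1) Z) (hc : bd k c = 0) : ∃ b, bd (k + 1) b = c := by
  obtain ⟨ρ, D, hρ, -, hD, -, -, hS, -⟩ := HC.main Z ({z} : Set Z) N h
  have h1 : ρ (k + 1) c ∈ Con ({z} : Set Z) (k + 1) := by
    have h2 := hS (k + 1) c
    rw [Sk, Finsupp.mem_supported] at h2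
    rw [P246.T.Con, Finsupp.mem_supported]
    exact fun σ hσ x => h2 hσ x ((HC.card_le x).trans hk)
  obtain ⟨b, hb⟩ := con_bound z h1 (by rw [hρ, hc, map_zero])
  refine ⟨b - D (k + 1) c, ?_⟩
  rw [map_sub, hb, hD, hc, map_zero, sub_zero]
  abel

/-- a simply connected space whose homology vanishes in degrees `2, …, m + 1` is
`(m + 1)`-connected -/
theorem lft [SimplyConnectedSpace Z] (z : Z) (m : ℕ)
    (hz : ∀ k < m, ∀ c : Ch (k + 2) Z, bd (k + 1) c = 0 → ∃ b, bd (k + 2) b = c) :
    ∀ k < m + 2, LftS ({z} : Set Z) k := by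
  have : Unique ({z} : Set Z) := Set.uniqueSingleton z
  have hA : IsPathConnected ({z} : Set Z) := isPathConnected_singleton z
  have h1 : ∀ k < 2, LftS ({z} : Set Z) k := by
    intro k hk
    rcases k with _ | _ | k
    · exact RH.lft0 hA.nonempty
    · exact RH.lft1 hA
    · omega
  have h2 := RH.hzero_pt Z z (m + 1) (fun k hk c hc => by
    cases k with
    | zero => exact bound_of_lft h1 0 le_rfl c hc
    | succ k => exact hz k (by omega) c hc)
  exact fun k hk => lft_of_hzero m Z {z} h2 k (by omega)

end Vale.Agent.P178.H551
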