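import Vale.Agent.P246.T.Sys
import Vale.Agent.P093.HB.H5

/-!
# The homotopy addition theorem for simplices

`IsSm z σ` : the simplex `σ : Δ^{m+2} → Z` maps the boundary to `z`. Such a simplex gives, by
composition with the standard map `qmap` from the cube to the simplex, a generalized loop
`loop σ h`, and every generalized loop arises in this way (`exists_sm`).

`shat` : simplices `s 0, …, s (m+3) : Δ^{m+2} → Z` with boundary at `z` are the faces of some
`τ : Δ^{m+3} → Z` if and only if the alternating sum of their classes in `π_{m+2}(Z, z)` vanishes.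
-/

namespace Vale.Agent.P178.H551

open Topology Metric Set Vale.Agent.P246.T
open Vale.Agent.P093.T (openCube ELoop PiGrp qmap qmap_mem continuous_qmap qmap_bdry qmap_surj
  qmap_one qmap_last qmap_zero descend side Ext faceSum hat cls_congr_fun cls_surj cls_const)

universe u

variable {Z : Type u} [TopologicalSpace Z] {z : Z} {m : ℕ}

/-- the simplex `σ` maps the boundary to `z` -/
def IsSm (z : Z) {k : ℕ} (σ : C(Dl k, Z)) : Prop := ∀ (x : Dl k) (i : Fin k), x i = 0 → σ x = z

theorem isSm_const (z : Z) (k : ℕ) : IsSm z (ContinuousMap.const (Dl k) z) := fun _ _ _ => rfl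

/-- the standard map from the cube (extended by clamping) to the simplex -/
noncomputable def qc (k : ℕ) : C(Fin k → ℝ, Dl (k + 1)) :=
  ⟨fun y => ⟨qmap k y, qmap_mem k y⟩, (continuous_qmap k).subtype_mk _⟩

theorem qc_coe (k : ℕ) (y : Fin k → ℝ) (i : Fin (k + 1)) : qc k y i = qmap k y i := rfl

theorem qc_one (k : ℕ) (i : Fin (k + 1)) (y : Fin k → ℝ) :
    qc (k + 1) (Fin.insertNth i 1 y) = face (k + 1) i.castSucc (qc k y) := by
  refine Subtype.ext (funext fun j => ?_)
  show qmap (k + 1) (Fin.insertNth i 1 y) j = face (k + 1) i.castSucc (qc k y) j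
  rw [qmap_one]
  induction j using Fin.succAboveCases i.castSucc with
  | x => rw [Fin.insertNth_apply_same, CV.face_self]
  | p j => rw [Fin.insertNth_apply_succAbove, CV.face_succAbove]; rfl

theorem qc_last (k : ℕ) (y : Fin k → ℝ) :
    qc (k + 1) (Fin.insertNth (Fin.last k) 0 y) = face (k + 1) (Fin.last (k + 1)) (qc k y) := by
  refine Subtype.ext (funext fun j => ?_)
  show qmap (k + 1) (Fin.insertNth (Fin.last k) 0 y) j = face (k + 1) (Fin.last _) (qc k y) j
  rw [qmap_last]
  induction j using Fin.succAboveCases (Fin.last (k + 1)) with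
  | x => rw [Fin.insertNth_apply_same, CV.face_self]
  | p j => rw [Fin.insertNth_apply_succAbove, CV.face_succAbove]; rfl

/-- a point of a face with two zero coordinates lies on the boundary of the face -/
theorem two_zeros {k : ℕ} {j a b : Fin (k + 1)} (hab : a ≠ b) {v : Dl k}
    (ha : face k j v a = 0) (hb : face k j v b = 0) : ∃ i, v i = 0 := by
  rcases Fin.eq_self_or_eq_succAbove j a with rfl | ⟨a', rfl⟩
  · rcases Fin.eq_self_or_eq_succAbove a b with rfl | ⟨b', rfl⟩
    · exact absurd rfl hab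
    · exact ⟨b', by rwa [CV.face_succAbove] at hb⟩
  · exact ⟨a', by rwa [CV.face_succAbove] at ha⟩

/-- simplices with boundary at `z` match on the boundary -/
theorem match_sm {k : ℕ} {s : Fin (k + 1) → C(Dl k, Z)} (hs : ∀ i, IsSm z (s i))
    {i j : Fin (k + 1)} {v w : Dl k} (h : face k i v = face k j w) : s i v = s j w := by
  by_cases hij : i = j
  · subst hij
    rw [Sys.face_inj k i h]
  · have h1 : face k i v j = 0 := by rw [h, CV.face_self]
    have h2 : face k j w i = 0 := by rw [← h, CV.face_self]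
    obtain ⟨a, ha⟩ := two_zeros hij (CV.face_self k i v) h1
    obtain ⟨b, hb⟩ := two_zeros hij h2 (CV.face_self k j w)
    rw [hs i v a ha, hs j w b hb]

/-- the loop of a simplex with boundary at `z` -/
noncomputable def loop (σ : C(Dl (m + 3), Z)) (h : IsSm z σ) : ELoop (m + 2) Z z :=
  ⟨fun y => σ (qc (m + 2) y), σ.continuous.comp (qc (m + 2)).continuous, fun y hy => by
    obtain ⟨j, hj⟩ := qmap_bdry (m + 2) y hy (by omega)
    exact h _ j hj⟩

theorem loop_apply (σ : C(Dl (m + 3), Z)) (h : IsSm z σ) (y : Fin (m + 2) → ℝ) :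
    loop σ h y = σ (qc (m + 2) y) := rfl

theorem cls_loop_const : (loop (ContinuousMap.const (Dl (m + 3)) z) (isSm_const z _)).cls = 0 := by
  rw [← cls_const (x₀ := z) (m := m)]
  rfl

/-- every loop is the loop of a simplex -/
theorem exists_sm (p : ELoop (m + 2) Z z) :
    ∃ (σ : C(Dl (m + 3), Z)) (h : IsSm z σ), ∀ y, loop σ h y = p y := by
  obtain ⟨f, hf, hfp⟩ := descend (m + 2) p p.cont fun x x' _ _ hx hx' _ => by
    rw [p.off x hx, p.off x' hx']
  have hs : IsSm z (⟨f, hf⟩ : C(Dl (m + 3), Z)) := by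
    intro x i hi
    obtain ⟨y, hy, hyx⟩ := qmap_surj (m + 2) x.1 x.2
    have hx : x = ⟨qmap (m + 2) y, qmap_mem (m + 2) y⟩ := Subtype.ext hyx.symm
    show f x = z
    rw [hx, hfp y hy]
    refine p.off y fun ho => ?_
    have := P093.T.fill_qmap_pos (m + 2) y ho i
    rw [hyx] at this
    exact this.ne' hi
  refine ⟨⟨f, hf⟩, hs, fun y => ?_⟩
  by_cases hy : y ∈ openCube (m + 2)
  · exact hfp y fun i => ⟨(hy i).1.le, (hy i).2.le⟩
  · rw [p.off y hy, (loop _ hs).off y hy]

/-- every class is the class of a simplex -/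
theorem exists_cls (c : PiGrp m Z z) :
    ∃ (σ : C(Dl (m + 3), Z)) (h : IsSm z σ), (loop σ h).cls = c := by
  obtain ⟨p, rfl⟩ := cls_surj c
  obtain ⟨σ, h, hp⟩ := exists_sm p
  exact ⟨σ, h, cls_congr_fun p _ hp⟩

section Hat

variable (s : Fin (m + 4) → C(Dl (m + 3), Z)) (hs : ∀ i, IsSm z (s i))

/-- the loops on the faces of the cube -/
noncomputable def gfam (i : Fin (m + 3)) (ε : Bool) : ELoop (m + 2) Z z :=
  if ε = true then loop (s i.castSucc) (hs _) else
    if i = Fin.last _ then loop (s (Fin.last _)) (hs _) else ELoop.const _ z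

theorem gfam_true (i : Fin (m + 3)) : gfam s hs i true = loop (s i.castSucc) (hs _) := rfl

theorem gfam_last : gfam s hs (Fin.last _) false = loop (s (Fin.last _)) (hs _) := by
  simp [gfam]

theorem gfam_false {i : Fin (m + 3)} (hi : i ≠ Fin.last _) :
    gfam s hs i false = ELoop.const _ z := by
  simp [gfam, hi]

theorem faceSum_gfam : faceSum (gfam s hs) =
    ∑ i : Fin (m + 4), ((-1 : ℤ) ^ (i : ℕ)) • (loop (s i) (hs i)).cls := by
  rw [faceSum, Fin.sum_univ_castSucc (n := m + 3)]
  simp only [smul_sub]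
  rw [Finset.sum_sub_distrib, sub_eq_add_neg]
  congr 1
  rw [Finset.sum_eq_single (Fin.last (m + 2)), gfam_last, Fin.val_last, Fin.val_last,
    pow_succ (-1 : ℤ) (m + 2), mul_neg_one, neg_smul]
  · intro i _ hi
    rw [gfam_false s hs hi, cls_const, smul_zero]
  · intro h
    exact absurd (Finset.mem_univ _) h

theorem ext_of_tau (τ : C(Dl (m + 4), Z)) (hτ : ∀ i, τ.comp (face (m + 3) i) = s i) :
    Ext (gfam s hs) := by
  refine ⟨fun x => τ (qc (m + 3) x), τ.continuous.comp (qc (m + 3)).continuous, fun i ε y => ?_⟩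
  have h1 : ∀ i v, τ (face (m + 3) i v) = s i v := fun i v => by rw [← hτ i]; rfl
  rcases ε with _ | _
  · by_cases hi : i = Fin.last _
    · subst hi
      rw [gfam_last, loop_apply, ← h1, ← qc_last]
      rfl
    · rw [gfam_false s hs hi]
      obtain ⟨h2, h3⟩ := qmap_zero (m + 2) i hi y
      have h2' : qc (m + 3) (Fin.insertNth i 0 y) (Fin.last (m + 3)) = 0 := h2
      have h3' : qc (m + 3) (Fin.insertNth i 0 y) (Fin.castSucc (Fin.last (m + 2))) = 0 := h3
      obtain ⟨v, hv⟩ := CV.exists_face (Fin.last (m + 3)) h2'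
      rw [← hv] at h2' h3'
      obtain ⟨a, ha⟩ := two_zeros (Fin.castSucc_lt_last _).ne h3' h2'
      show τ (qc (m + 3) (Fin.insertNth i 0 y)) = z
      rw [← hv, h1, hs _ v a ha]
  · rw [gfam_true, loop_apply, ← h1, ← qc_one]
    rfl

/-- the values of an extension on the boundary of the cube -/
theorem val_bdry {G : (Fin (m + 3) → ℝ) → Z}
    (hG : ∀ i ε (y : Fin (m + 2) → ℝ), G (Fin.insertNth i (side ε) y) = gfam s hs i ε y)
    {x : Fin (m + 3) → ℝ} (hx : ∀ i, 0 ≤ x i ∧ x i ≤ 1) (ho : x ∉ openCube (m + 3))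
    {j : Fin (m + 4)} {v : Dl (m + 3)} (hv : face (m + 3) j v = qc (m + 3) x) : G x = s j v := by
  obtain ⟨i, hi⟩ : ∃ i, ¬ (0 < x i ∧ x i < 1) := by
    by_contra hc
    push Not at hc
    exact ho fun i => hc i
  have hsp : ∀ t, x i = t → x = Fin.insertNth i t (Fin.removeNth i x) := by
    rintro t rfl
    exact (Fin.insertNth_self_removeNth i x).symm
  set y := Fin.removeNth i x with hy
  rcases (hx i).1.eq_or_lt with h0 | h0
  · have h1 := hsp 0 h0.symm
    by_cases hil : i = Fin.last _
    · subst hil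
      have h2 := hG (Fin.last _) false y
      rw [gfam_last, loop_apply] at h2
      rw [h1]
      refine Eq.trans h2 (match_sm hs ?_)
      rw [hv, h1, qc_last]
    · have h2 := hG i false y
      rw [gfam_false s hs hil] at h2
      obtain ⟨h3, h4⟩ := qmap_zero (m + 2) i hil y
      have h3' : face (m + 3) j v (Fin.last (m + 3)) = 0 := by rw [hv, h1]; exact h3
      have h4' : face (m + 3) j v (Fin.castSucc (Fin.last (m + 2))) = 0 := by
        rw [hv, h1]; exact h4
      obtain ⟨a, ha⟩ := two_zeros (Fin.castSucc_lt_last _).ne h4' h3'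
      rw [hs j v a ha, h1]
      exact h2
  · have h1 := hsp 1 (le_antisymm (hx i).2 (not_lt.1 fun h => hi ⟨h0, h⟩))
    have h2 := hG i true y
    rw [gfam_true, loop_apply] at h2
    rw [h1]
    refine Eq.trans h2 (match_sm hs ?_)
    rw [hv, h1, qc_one]

theorem tau_of_ext (h : Ext (gfam s hs)) :
    ∃ τ : C(Dl (m + 4), Z), ∀ i, τ.comp (face (m + 3) i) = s i := by
  obtain ⟨G, hGc, hG⟩ := h
  obtain ⟨f, hf, hfG⟩ := descend (m + 3) G hGc fun x x' hx hx' ho ho' hq => by
    obtain ⟨j, hj⟩ := qmap_bdry (m + 3) x ho (by omega)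
    have hj' : qc (m + 3) x j = 0 := hj
    obtain ⟨v, hv⟩ := CV.exists_face j hj'
    have hq' : qc (m + 3) x = qc (m + 3) x' := Subtype.ext hq
    rw [val_bdry s hs hG hx ho hv, val_bdry s hs hG hx' ho' (hv.trans hq')]
  refine ⟨⟨f, hf⟩, fun i => ContinuousMap.ext fun v => ?_⟩
  show f (face (m + 3) i v) = s i v
  obtain ⟨x, hx, hxv⟩ := qmap_surj (m + 3) (face (m + 3) i v).1 (face (m + 3) i v).2
  have hw : face (m + 3) i v = ⟨qmap (m + 3) x, qmap_mem (m + 3) x⟩ := Subtype.ext hxv.symm
  rw [hw, hfG x hx]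
  refine val_bdry s hs hG hx (fun ho => ?_) hw
  have := P093.T.fill_qmap_pos (m + 3) x ho i
  rw [hxv] at this
  exact this.ne' (CV.face_self _ i v)

/-- **The homotopy addition theorem for simplices.** -/
theorem shat : (∃ τ : C(Dl (m + 4), Z), ∀ i, τ.comp (face (m + 3) i) = s i) ↔
    ∑ i : Fin (m + 4), ((-1 : ℤ) ^ (i : ℕ)) • (loop (s i) (hs i)).cls = 0 := by
  rw [← faceSum_gfam, ← hat]
  exact ⟨fun ⟨τ, hτ⟩ => ext_of_tau s hs τ hτ, tau_of_ext s hs⟩

end Hat

end Vale.Agent.P178.H551
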