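import Vale.Agent.P178.H551.Hur1
import Vale.Agent.P178.H551.Hur2

/-!
# The absolute Hurewicz theorem

`hur z σ = σ - const z`, a singular chain of degree `n = m + 2`; it is a cycle if `σ` maps the
boundary of the simplex to `z`.

* `cls_hur` (any space): if two such simplices have the same class in `π_n(Z, z)`, then their
  Hurewicz cycles are homologous;
* `hur_surj`, `hur_inj`: if `Z` is `(n - 1)`-connected, then every `n`-cycle is homologous to
  `hur z σ` for some `σ`, and if `hur z σ` bounds, then the class of `σ` in `π_n(Z, z)` vanishes.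
-/

namespace Vale.Agent.P178.H551

open Topology Metric Set Vale.Agent.P246.T
open Vale.Agent.P093.T (openCube ELoop PiGrp)

variable {Z : Type} [TopologicalSpace Z] {z : Z} {m : ℕ}

/-- the Hurewicz chain of the simplex `σ` -/
noncomputable def hur (z : Z) {n : ℕ} (σ : C(Dl (n + 1), Z)) : Ch n Z :=
  Finsupp.single σ 1 - Finsupp.single (ContinuousMap.const _ z) 1

theorem hur_const (z : Z) (n : ℕ) : hur z (ContinuousMap.const (Dl (n + 1)) z) = 0 := sub_self _

/-- naturality -/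
theorem push_hur {Y : Type} [TopologicalSpace Y] (φ : C(Z, Y)) {n : ℕ} (σ : C(Dl (n + 1), Z)) :
    push φ n (hur z σ) = hur (φ z) (φ.comp σ) := by
  rw [hur, map_sub, push_single, push_single]
  rfl

/-- the boundary of a Hurewicz chain -/
theorem bd_hur (n : ℕ) (σ : C(Dl (n + 2), Z)) : bd n (hur z σ) =
    ∑ i : Fin (n + 2), ((-1 : ℤ) ^ (i : ℕ)) • hur z (σ.comp (face (n + 1) i)) := by
  rw [hur, map_sub, bd_single, bd_single, ← Finset.sum_sub_distrib]
  refine Finset.sum_congr rfl fun i _ => ?_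
  rw [hur, smul_sub, Finsupp.smul_single, Finsupp.smul_single, one_mul, smul_eq_mul, mul_one]
  rfl

theorem face_isSm {k : ℕ} {σ : C(Dl (k + 1), Z)} (h : IsSm z σ) (i : Fin (k + 1)) :
    σ.comp (face k i) = ContinuousMap.const _ z :=
  ContinuousMap.ext fun x => h _ i (CV.face_self k i x)

/-- the Hurewicz chain is a cycle -/
theorem hur_cyc {n : ℕ} {σ : C(Dl (n + 2), Z)} (h : IsSm z σ) : bd n (hur z σ) = 0 := by
  rw [bd_hur]
  refine Finset.sum_eq_zero fun i _ => ?_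
  rw [face_isSm h, hur_const, smul_zero]

theorem bd_hur_sum (s : Fin (m + 4) → C(Dl (m + 3), Z)) (hs : ∀ i, IsSm z (s i))
    (h : ∑ i : Fin (m + 4), ((-1 : ℤ) ^ (i : ℕ)) • (loop (s i) (hs i)).cls = 0) :
    ∃ b, bd (m + 2) b = ∑ i : Fin (m + 4), ((-1 : ℤ) ^ (i : ℕ)) • hur z (s i) := by
  obtain ⟨τ, hτ⟩ := (shat s hs).2 h
  refine ⟨hur z τ, ?_⟩
  rw [bd_hur]
  exact Finset.sum_congr rfl fun i _ => by rw [hτ]

/-- three simplices with boundary at `z`, as faces of a simplex -/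
theorem add_hur (σ₁ σ₂ σ₃ : C(Dl (m + 3), Z)) (h₁ : IsSm z σ₁) (h₂ : IsSm z σ₂) (h₃ : IsSm z σ₃)
    (h : (loop σ₃ h₃).cls = (loop σ₁ h₁).cls + (loop σ₂ h₂).cls) :
    ∃ b, hur z σ₁ + hur z σ₂ - hur z σ₃ = bd (m + 2) b := by
  let s : Fin (m + 4) → C(Dl (m + 3), Z) := fun i =>
    if i.val = 0 then σ₁ else if i.val = 1 then σ₃ else if i.val = 2 then σ₂ else
      ContinuousMap.const _ z
  have hs : ∀ i, IsSm z (s i) := by
    intro i
    simp only [s]
    split_ifs
    exacts [h₁, h₃, h₂, isSm_const _ _]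
  have key : ∀ {A : Type} [AddCommGroup A] (f : ∀ σ : C(Dl (m + 3), Z), IsSm z σ → A)
      (_ : f (ContinuousMap.const _ z) (isSm_const _ _) = 0),
      ∑ i : Fin (m + 4), ((-1 : ℤ) ^ (i : ℕ)) • f (s i) (hs i) =
        f σ₁ h₁ - f σ₃ h₃ + f σ₂ h₂ := by
    intro A _ f hf
    rw [Fin.sum_univ_succ, Fin.sum_univ_succ, Fin.sum_univ_succ, Finset.sum_eq_zero]
    · have e0 : f (s 0) (hs 0) = f σ₁ h₁ := rfl
      have e1 : f (s (Fin.succ 0)) (hs (Fin.succ 0)) = f σ₃ h₃ := rfl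
      have e2 : f (s (Fin.succ (Fin.succ 0))) (hs (Fin.succ (Fin.succ 0))) = f σ₂ h₂ := rfl
      rw [e0, e1, e2]
      simp only [Fin.val_succ, Fin.val_zero]
      simp
      abel
    · intro i _
      have e3 : f (s (Fin.succ (Fin.succ (Fin.succ i)))) (hs (Fin.succ (Fin.succ (Fin.succ i)))) =
          f (ContinuousMap.const _ z) (isSm_const _ _) := by
        congr 1
      rw [e3, hf, smul_zero]
  obtain ⟨b, hb⟩ := bd_hur_sum s hs (by
    rw [key (fun σ h => (loop σ h).cls) cls_loop_const, h]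
    abel)
  refine ⟨b, ?_⟩
  rw [hb, key (fun σ _ => hur z σ) (hur_const z _)]
  abel

/-- **The Hurewicz map is well defined** (for every space). -/
theorem cls_hur (σ σ' : C(Dl (m + 3), Z)) (h : IsSm z σ) (h' : IsSm z σ')
    (e : (loop σ h).cls = (loop σ' h').cls) : ∃ b, hur z σ - hur z σ' = bd (m + 2) b := by
  obtain ⟨b, hb⟩ := add_hur σ (ContinuousMap.const _ z) σ' h (isSm_const _ _) h' (by
    rw [cls_loop_const, add_zero, e])
  exact ⟨b, by rw [← hb, hur_const, add_zero]⟩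

theorem cls_hur_zero (σ : C(Dl (m + 3), Z)) (h : IsSm z σ) (e : (loop σ h).cls = 0) :
    ∃ b, hur z σ = bd (m + 2) b := by
  obtain ⟨b, hb⟩ := cls_hur σ (ContinuousMap.const _ z) h (isSm_const _ _) (by
    rw [cls_loop_const, e])
  exact ⟨b, by rw [← hb, hur_const, sub_zero]⟩

/-! ### Surjectivity -/

/-- the chains which are homologous to a Hurewicz cycle -/
noncomputable def spherical (z : Z) (m : ℕ) : AddSubgroup (Ch (m + 2) Z) where
  carrier := {c | ∃ (σ : C(Dl (m + 3), Z)) (_ : IsSm z σ) (b : Ch (m + 3) Z),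
    c - hur z σ = bd (m + 2) b}
  zero_mem' := ⟨_, isSm_const z _, 0, by rw [hur_const, sub_zero, map_zero]⟩
  add_mem' := by
    rintro c c' ⟨σ, h, b, hb⟩ ⟨σ', h', b', hb'⟩
    obtain ⟨σ₃, h₃, e⟩ := exists_cls ((loop σ h).cls + (loop σ' h').cls)
    obtain ⟨b'', hb''⟩ := add_hur σ σ' σ₃ h h' h₃ e
    refine ⟨σ₃, h₃, b + b' + b'', ?_⟩
    rw [map_add, map_add, ← hb, ← hb', ← hb'']
    abel
  neg_mem' := by
    rintro c ⟨σ, h, b, hb⟩
    obtain ⟨σ', h', e⟩ := exists_cls (-(loop σ h).cls)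
    obtain ⟨b'', hb''⟩ := add_hur σ σ' _ h h' (isSm_const z _) (by
      rw [cls_loop_const, e, add_neg_cancel])
    refine ⟨σ', h', -b - b'', ?_⟩
    rw [map_sub, map_neg, ← hb, ← hb'', hur_const]
    abel

theorem hur_mem_spherical {σ : C(Dl (m + 3), Z)} (h : IsSm z σ) : hur z σ ∈ spherical z m :=
  ⟨σ, h, 0, by rw [sub_self, map_zero]⟩

theorem isSm_of_card {k : ℕ} {σ : C(Dl (k + 1), Z)}
    (h : ∀ x : Dl (k + 1), (Finset.univ.filter fun i => x i ≠ 0).card ≤ k →
      σ x ∈ ({z} : Set Z)) : IsSm z σ := by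
  intro x i hi
  refine h x ?_
  have h1 : (Finset.univ.filter fun i => x i ≠ 0) ⊆ Finset.univ.erase i := by
    intro j hj
    rw [Finset.mem_filter] at hj
    rw [Finset.mem_erase]
    exact ⟨fun e => hj.2 (by rw [e]; exact hi), Finset.mem_univ _⟩
  refine (Finset.card_le_card h1).trans ?_
  rw [Finset.card_erase_of_mem (Finset.mem_univ _), Finset.card_univ, Fintype.card_fin]
  omega

theorem card_of_isSm {k : ℕ} {σ : C(Dl (k + 1), Z)} (hσ : IsSm z σ) (x : Dl (k + 1))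
    (hx : (Finset.univ.filter fun i => x i ≠ 0).card ≤ k) : σ x ∈ ({z} : Set Z) := by
  obtain ⟨i, hi⟩ : ∃ i, x i = 0 := by
    by_contra hc
    push Not at hc
    have : (Finset.univ.filter fun i => x i ≠ 0) = Finset.univ :=
      Finset.filter_true_of_mem fun i _ => hc i
    rw [this, Finset.card_univ, Fintype.card_fin] at hx
    omega
  exact hσ x i hi

theorem hur_mem_Sk {k : ℕ} {σ : C(Dl (k + 1), Z)} (hσ : IsSm z σ) :
    hur z σ ∈ Sk ({z} : Set Z) k k :=
  Submodule.sub_mem _ (LL.single_mem_Sk (fun x hx => card_of_isSm hσ x hx) 1)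
    (LL.single_mem_Sk (fun _ _ => rfl) 1)

/-- **The Hurewicz map is onto.** -/
theorem hur_surj (h : ∀ k < m + 2, LftS ({z} : Set Z) k) (c : Ch (m + 2) Z)
    (hc : bd (m + 1) c = 0) :
    ∃ (σ : C(Dl (m + 3), Z)) (_ : IsSm z σ) (b : Ch (m + 3) Z), c - hur z σ = bd (m + 2) b := by
  obtain ⟨ρ, D, hρ, -, hD, -, -, hS, -⟩ := HC.main Z ({z} : Set Z) (m + 2) h
  have key : ∀ c ∈ Sk ({z} : Set Z) (m + 2) (m + 2),
      c - PR.wt (m + 2) c • ksx (m + 2) z ∈ spherical z m := by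
    intro c hc
    refine LL.Sk_ind (P := fun c => c - PR.wt (m + 2) c • ksx (m + 2) z ∈ spherical z m)
      ?_ ?_ ?_ hc
    · rw [map_zero, zero_smul, sub_zero]; exact zero_mem _
    · intro a b ha hb
      have := add_mem ha hb
      rw [map_add, add_smul]
      convert this using 1
      abel
    · intro a σ hσ
      have h1 := zsmul_mem (hur_mem_spherical (isSm_of_card hσ)) a
      rw [PR.wt_single]
      convert h1 using 1
      rw [hur, ksx, smul_sub, Finsupp.smul_single, Finsupp.smul_single, smul_eq_mul, mul_one]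
  obtain ⟨σ, hσ, b, hb⟩ := key _ (hS (m + 2) c)
  have h1 : bd (m + 1) (PR.wt (m + 2) (ρ (m + 2) c) • ksx (m + 2) z) = 0 := by
    have h2 : PR.wt (m + 2) (ρ (m + 2) c) • ksx (m + 2) z =
        ρ (m + 2) c - hur z σ - bd (m + 2) b := by
      rw [← hb]; abel
    rw [h2, map_sub, map_sub, hρ, hc, map_zero, hur_cyc hσ, SD.bd_bd]
    simp
  obtain ⟨b', hb'⟩ : ∃ b' : Ch (m + 3) Z,
      bd (m + 2) b' = PR.wt (m + 2) (ρ (m + 2) c) • ksx (m + 2) z :=
    con_bound z (Submodule.smul_mem _ _ (PR.single_mem (fun _ => rfl) 1)) h1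
  refine ⟨σ, hσ, b + b' - D (m + 2) c, ?_⟩
  rw [map_sub, map_add, hb', ← hb, hD, hc, map_zero]
  abel

/-! ### Injectivity -/

open Classical in
/-- the class of a chain of simplices with boundary at `z` -/
noncomputable def Phi (z : Z) (m : ℕ) : Ch (m + 2) Z →ₗ[ℤ] PiGrp m Z z :=
  Finsupp.linearCombination ℤ fun σ : C(Dl (m + 3), Z) =>
    if h : IsSm z σ then (loop σ h).cls else 0

theorem Phi_single {σ : C(Dl (m + 3), Z)} (h : IsSm z σ) (a : ℤ) :
    Phi z m (Finsupp.single σ a) = a • (loop σ h).cls := by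
  rw [Phi, Finsupp.linearCombination_single, dif_pos h]

theorem Phi_hur {σ : C(Dl (m + 3), Z)} (h : IsSm z σ) : Phi z m (hur z σ) = (loop σ h).cls := by
  rw [hur, map_sub, Phi_single h, Phi_single (isSm_const z _), cls_loop_const, smul_zero, sub_zero,
    one_smul]

theorem Phi_bd {c : Ch (m + 3) Z} (hc : c ∈ Sk ({z} : Set Z) (m + 2) (m + 3)) :
    Phi z m (bd (m + 2) c) = 0 := by
  refine LL.Sk_ind (P := fun c => Phi z m (bd (m + 2) c) = 0) ?_ ?_ ?_ hc
  · rw [map_zero, map_zero]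
  · intro a b ha hb
    rw [map_add, map_add, ha, hb, add_zero]
  · intro a τ hτ
    have hs : ∀ i, IsSm z (τ.comp (face (m + 3) i)) := fun i =>
      isSm_of_card fun x hx => hτ _ (by rw [LL.card_face]; exact hx)
    have h1 := (shat (fun i => τ.comp (face (m + 3) i)) hs).1 ⟨τ, fun _ => rfl⟩
    rw [bd_single, map_sum]
    calc _ = ∑ i : Fin (m + 4), a • ((-1 : ℤ) ^ (i : ℕ)) •
          (loop (τ.comp (face (m + 3) i)) (hs i)).cls :=
          Finset.sum_congr rfl fun i _ => by rw [Phi_single (hs i), smul_smul]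
      _ = 0 := by rw [← Finset.smul_sum, h1, smul_zero]

/-- **The Hurewicz map is injective.** -/
theorem hur_inj (h : ∀ k < m + 2, LftS ({z} : Set Z) k) {σ : C(Dl (m + 3), Z)} (hσ : IsSm z σ)
    {b : Ch (m + 3) Z} (hb : hur z σ = bd (m + 2) b) : (loop σ hσ).cls = 0 := by
  obtain ⟨ρ, D, hρ, -, -, -, -, hS, hid⟩ := HC.main Z ({z} : Set Z) (m + 2) h
  rw [← Phi_hur hσ, ← hid _ _ (hur_mem_Sk hσ), hb, ← hρ, Phi_bd (hS _ _)]

end Vale.Agent.P178.H551
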