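import Vale.Agent.P178.H551.Hur3
import Vale.Agent.P178.H301.PiMap

/-!
# Elements of homotopy groups and the cycles which represent them

`Rep α c` : the element `α` of `π_n(Z, z)`, `n = m + 2`, is the class of a simplex whose Hurewicz
cycle is homologous to `c`.
-/

namespace Vale.Agent.P178.H551

open Topology Metric Set Vale.Agent.P246.T Vale.Agent.P178.H301
open Vale.Agent.P093.T (openCube ELoop PiGrp)

variable {Z : Type} [TopologicalSpace Z] {z : Z} {m : ℕ}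

/-- the Hurewicz image of `α` is the class of `c` -/
def Rep (α : HomotopyGroup (Fin (m + 2)) Z z) (c : Ch (m + 2) Z) : Prop :=
  ∃ (σ : C(Dl (m + 3), Z)) (h : IsSm z σ), (loop σ h).cls = Additive.ofMul α ∧
    ∃ b, c - hur z σ = bd (m + 2) b

/-- every element has a Hurewicz image -/
theorem exists_rep (α : HomotopyGroup (Fin (m + 2)) Z z) :
    ∃ c, bd (m + 1) c = 0 ∧ Rep α c := by
  obtain ⟨σ, h, e⟩ := exists_cls (Additive.ofMul α)
  exact ⟨hur z σ, hur_cyc h, σ, h, e, 0, by rw [sub_self, map_zero]⟩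

theorem Rep.congr {α : HomotopyGroup (Fin (m + 2)) Z z} {c c' : Ch (m + 2) Z} (h : Rep α c)
    (hc : ∃ b, c' - c = bd (m + 2) b) : Rep α c' := by
  obtain ⟨σ, hσ, e, b, hb⟩ := h
  obtain ⟨b', hb'⟩ := hc
  exact ⟨σ, hσ, e, b + b', by rw [map_add, ← hb, ← hb']; abel⟩

/-- the Hurewicz image is well defined -/
theorem Rep.unique {α : HomotopyGroup (Fin (m + 2)) Z z} {c c' : Ch (m + 2) Z} (h : Rep α c)
    (h' : Rep α c') : ∃ b, c - c' = bd (m + 2) b := by
  obtain ⟨σ, hσ, e, b, hb⟩ := h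
  obtain ⟨σ', hσ', e', b', hb'⟩ := h'
  obtain ⟨b'', hb''⟩ := cls_hur σ σ' hσ hσ' (e.trans e'.symm)
  refine ⟨b - b' + b'', ?_⟩
  rw [map_add, map_sub, ← hb, ← hb', ← hb'']
  abel

theorem Rep.zero : Rep (1 : HomotopyGroup (Fin (m + 2)) Z z) 0 :=
  ⟨ContinuousMap.const _ z, isSm_const z _, cls_loop_const, 0, by
    rw [hur_const, sub_zero, map_zero]⟩

/-- the Hurewicz image of the trivial element bounds -/
theorem Rep.bounds {c : Ch (m + 2) Z} (h : Rep (1 : HomotopyGroup (Fin (m + 2)) Z z) c) :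
    ∃ b, c = bd (m + 2) b := by
  obtain ⟨b, hb⟩ := h.unique Rep.zero
  exact ⟨b, by rw [← hb, sub_zero]⟩

theorem Rep.mul {α β : HomotopyGroup (Fin (m + 2)) Z z} {c d : Ch (m + 2) Z} (h : Rep α c)
    (h' : Rep β d) : Rep (α * β) (c + d) := by
  obtain ⟨σ, hσ, e, b, hb⟩ := h
  obtain ⟨σ', hσ', e', b', hb'⟩ := h'
  obtain ⟨σ₃, h₃, e₃⟩ := exists_cls (m := m) (Additive.ofMul (α * β))
  obtain ⟨b'', hb''⟩ := add_hur σ σ' σ₃ hσ hσ' h₃ (by rw [e₃, e, e']; rfl)
  refine ⟨σ₃, h₃, e₃, b + b' + b'', ?_⟩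
  rw [map_add, map_add, ← hb, ← hb', ← hb'']
  abel

/-- naturality -/
theorem Rep.map {Y : Type} [TopologicalSpace Y] {y : Y} (f : C(Z, Y)) (hf : f z = y)
    {α : HomotopyGroup (Fin (m + 2)) Z z} {c : Ch (m + 2) Z} (h : Rep α c) :
    Rep (piMap f hf α) (push f (m + 2) c) := by
  subst hf
  obtain ⟨σ, hσ, e, b, hb⟩ := h
  have hσ' : IsSm (f z) (f.comp σ) := fun x i hi => congrArg f (hσ x i hi)
  refine ⟨f.comp σ, hσ', ?_, push f (m + 3) b, ?_⟩
  · have h1 : α = (⟦(loop σ hσ).toGen⟧ : HomotopyGroup (Fin (m + 2)) Z z) :=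
      Additive.ofMul.injective e.symm
    rw [h1, piMap_mk]
    rfl
  · rw [push_bd, ← hb, map_sub, push_hur]

/-- **Surjectivity of the Hurewicz map.** -/
theorem exists_rep_of_cyc (h : ∀ k < m + 2, LftS ({z} : Set Z) k) (c : Ch (m + 2) Z)
    (hc : bd (m + 1) c = 0) : ∃ α : HomotopyGroup (Fin (m + 2)) Z z, Rep α c := by
  obtain ⟨σ, hσ, b, hb⟩ := hur_surj h c hc
  exact ⟨Additive.toMul (loop σ hσ).cls, σ, hσ, rfl, b, hb⟩

/-- **Injectivity of the Hurewicz map.** -/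
theorem Rep.eq_one (h : ∀ k < m + 2, LftS ({z} : Set Z) k)
    {α : HomotopyGroup (Fin (m + 2)) Z z} {c : Ch (m + 2) Z} (hα : Rep α c)
    (hc : ∃ b, c = bd (m + 2) b) : α = 1 := by
  obtain ⟨σ, hσ, e, b, hb⟩ := hα
  obtain ⟨b', hb'⟩ := hc
  have := hur_inj h hσ (b := b' - b) (by rw [map_sub, ← hb, ← hb']; abel)
  rw [e] at this
  exact Additive.ofMul.injective this

/-- **The criterion.** Let `S → Q → Q'` and `S → S' → Q'` be a commutative square of spaces, let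
`S`, `S'` be `(n - 1)`-connected and let `c` be an `n`-cycle of `S` whose image in `S'` bounds and
whose image in `Q` does not bound. Then `π_n(Q) → π_n(Q')` is not injective. -/
theorem not_injective_of_cycle {S S' Q Q' : Type} [TopologicalSpace S] [TopologicalSpace S']
    [TopologicalSpace Q] [TopologicalSpace Q'] {s : S} {s' : S'} {q : Q} {q' : Q'}
    (φ : C(S, Q)) (hφ : φ s = q) (f : C(S, S')) (hf : f s = s') (φ' : C(S', Q'))
    (hφ' : φ' s' = q') (g : C(Q, Q')) (hg : g q = q') (hsq : g.comp φ = φ'.comp f)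
    (hS : ∀ k < m + 2, LftS ({s} : Set S) k) (hS' : ∀ k < m + 2, LftS ({s'} : Set S') k)
    (c : Ch (m + 2) S) (hc : bd (m + 1) c = 0) (hb : ∃ b, push f (m + 2) c = bd (m + 2) b)
    (hn : ¬ ∃ b, push φ (m + 2) c = bd (m + 2) b) :
    ¬ Function.Injective (piMap g hg : HomotopyGroup (Fin (m + 2)) Q q →
      HomotopyGroup (Fin (m + 2)) Q' q') := by
  intro hi
  obtain ⟨α, hα⟩ := exists_rep_of_cyc hS c hc
  have h1 : piMap f hf α = 1 := (hα.map f hf).eq_one hS' hb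
  have h2 : piMap g hg (piMap φ hφ α) = piMap φ' hφ' (piMap f hf α) := by
    rw [← piMap_comp φ hφ g hg, ← piMap_comp f hf φ' hφ']
    exact piMap_congr hsq _ _ α
  have h3 : piMap φ hφ α = 1 := by
    apply hi
    rw [h2, h1, piMap_one, piMap_one]
  have h4 := hα.map φ hφ
  rw [h3] at h4
  exact hn h4.bounds

end Vale.Agent.P178.H551
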